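import Crest.Agent.R339.T.Den

/-!
# R339/T/Cls (owner helper98): orthonormal trigonometric messages and a trigonometric final angle with almost the same value.
-/

set_option autoImplicit false
open MeasureTheory ProbabilityTheory Filter Topology Complex

namespace Crest.Agent.R339.T

theorem mem_coord {k : ℕ} (i : Fin (k + 1)) : MemLp (fun g : Fin (k + 1) → ℝ => g i) 2 (gk k) :=
  (memLp_id_gaussianReal' 2 (by simp)).comp_measurePreserving (measurePreserving_eval (fun _ => gaussianReal 0 1) i)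

theorem inner_eq {k : ℕ} {x y : Lp ℝ 2 (gk k)} {f h : (Fin (k + 1) → ℝ) → ℝ} (hx : x =ᵐ[gk k] f) (hy : y =ᵐ[gk k] h) :
    inner ℝ x y = ∫ g, f g * h g ∂gk k := by
  rw [L2.inner_def]
  refine integral_congr_ae ?_
  filter_upwards [hx, hy] with g h1 h2
  simp [h1, h2, mul_comm]

theorem mem_sin {k : ℕ} (ϑ : List (ℝ × (ℕ → ℝ))) : MemLp (fun g => Real.sin (2 * fS ϑ k g)) 2 (gk k) :=
  mem_bdd (by fun_prop) fun _ => Real.abs_sin_le_one _

theorem cls_approx {k : ℕ} {m : Fin k → (Fin (k + 1) → ℝ) → ℝ} {s : (Fin (k + 1) → ℝ) → ℝ} (h : ClsData k m s)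
    {ε : ℝ} (hε : 0 < ε) : ∃ (P : ℕ → List (ℝ × (ℕ → ℝ))) (ϑ : List (ℝ × (ℕ → ℝ))),
      (∀ i < k, ∀ j < k, ∫ g, fS (P i) i g * fS (P j) j g ∂gk k = if i = j then 1 else 0) ∧
      clsVal k m s - ε < clsVal k (fun q => fS (P q) q) fun g => Real.sin (2 * fS ϑ k g) := by
  let M : ℕ → Lp ℝ 2 (gk k) := fun q => if hq : q < k then (h.mem_m ⟨q, hq⟩).toLp _ else 0
  have hM : ∀ q : Fin k, M q =ᵐ[gk k] m q := fun q => by
    simp only [M, q.2, dif_pos]
    exact MemLp.coeFn_toLp _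
  obtain ⟨p, h1, h2, h3⟩ := gs (TP_mono k) M k
    (fun i hi j hj => by
      rw [inner_eq (hM ⟨i, hi⟩) (hM ⟨j, hj⟩), h.orth]
      simp only [Fin.mk.injEq])
    fun q hq => by
      simp only [M, hq, dif_pos]
      exact dense (q := q) (h.cont_m ⟨q, hq⟩) (h.dep ⟨q, hq⟩) (h.odd_m ⟨q, hq⟩) (h.mem_m ⟨q, hq⟩)
  have hs : MemLp s 2 (gk k) := mem_bdd h.cont_s h.abs_s
  have hc : Continuous fun g => Real.arcsin (s g) / 2 := (Real.continuous_arcsin.comp h.cont_s).div_const 2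
  have hθ : MemLp (fun g => Real.arcsin (s g) / 2) 2 (gk k) := mem_bdd hc (C := Real.pi) fun g => by
    have := Real.arcsin_le_pi_div_two (s g)
    have := Real.neg_pi_div_two_le_arcsin (s g)
    have := Real.pi_pos
    rw [abs_le]
    constructor <;> linarith
  obtain ⟨r, hr, hr'⟩ := mem_closure_iff_seq_limit.1 (dense (q := k) hc
    (fun g g' e => by rw [funext fun i => e i (Nat.lt_succ_iff.1 i.2)])
    (fun g => by rw [h.odd_s, Real.arcsin_neg, neg_div]) hθ)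
  choose ϑ hϑ using hr
  have t1 : Tendsto (fun N => (mem_sin (ϑ N)).toLp _) atTop (𝓝 (hs.toLp s)) := by
    rw [tendsto_iff_norm_sub_tendsto_zero] at hr' ⊢
    refine squeeze_zero (fun _ => norm_nonneg _) (fun N => ?_) (by simpa using hr'.const_mul 2)
    refine Lp.norm_le_mul_norm_of_ae_le_mul ?_
    filter_upwards [Lp.coeFn_sub ((mem_sin (ϑ N)).toLp _) (hs.toLp s), Lp.coeFn_sub (r N) (hθ.toLp _),
      (mem_sin (ϑ N)).coeFn_toLp, hs.coeFn_toLp, hθ.coeFn_toLp, hϑ N] with g e1 e2 e3 e4 e5 e6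
    rw [e1, e2, Pi.sub_apply, Pi.sub_apply, e3, e4, e5, e6, Real.norm_eq_abs, Real.norm_eq_abs]
    have := Real.abs_sin_sub_sin_le (2 * fS (ϑ N) k g) (Real.arcsin (s g))
    rw [Real.sin_arcsin (abs_le.1 (h.abs_s g)).1 (abs_le.1 (h.abs_s g)).2] at this
    refine this.trans (le_of_eq ?_)
    rw [show 2 * fS (ϑ N) k g - Real.arcsin (s g) = 2 * (fS (ϑ N) k g - Real.arcsin (s g) / 2) by ring, abs_mul,
      abs_two]
  have t2 := tendsto_finsetSum Finset.univ fun (q : Fin k) _ =>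
    (t1.inner (𝕜 := ℝ) (h3 q q.2)).mul (t1.inner (𝕜 := ℝ) (tendsto_const_nhds (x := (mem_coord q.succ).toLp _)))
  have e : clsVal k m s = ∑ q : Fin k, inner ℝ (hs.toLp s) (M q) * inner ℝ (hs.toLp s) ((mem_coord q.succ).toLp _) :=
    Finset.sum_congr rfl fun q _ => by
      rw [inner_eq hs.coeFn_toLp (hM q), inner_eq hs.coeFn_toLp (MemLp.coeFn_toLp _)]
  obtain ⟨N, a1, a2⟩ := (h1.and (t2.eventually (lt_mem_nhds (sub_lt_self _ hε)))).exists
  choose! P hP using h2 N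
  refine ⟨P, ϑ N, fun i hi j hj => by rw [← inner_eq (hP i hi) (hP j hj), a1 i hi j hj], ?_⟩
  rw [e]
  refine a2.trans_eq (Finset.sum_congr rfl fun q _ => ?_)
  rw [inner_eq (mem_sin (ϑ N)).coeFn_toLp (hP q q.2), inner_eq (mem_sin (ϑ N)).coeFn_toLp (MemLp.coeFn_toLp _)]

end Crest.Agent.R339.T
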