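import Crest.Agent.R339.Defs

/-!
# R339/T/Den (owner helper98): odd trigonometric polynomials are dense among the odd functions of `g_0 … g_q` in `L²(γ)`
(uniqueness of characteristic functions); Gram-Schmidt along a sequence of approximants.
-/

set_option autoImplicit false
open MeasureTheory ProbabilityTheory Filter Topology Complex
open scoped NNReal

namespace Crest.Agent.R339.T

/-- truncation of a coefficient vector -/
def tr (q : ℕ) (a : ℕ → ℝ) : ℕ → ℝ := fun i => if i ≤ q then a i else 0

/-- `∑_{i ≤ q} a_i g_i` -/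
def dot {k : ℕ} (a : ℕ → ℝ) (q : ℕ) (g : Fin (k + 1) → ℝ) : ℝ := ∑ i : Fin (k + 1), tr q a i * g i

/-- the function attached to the list `P` -/
noncomputable def fS {k : ℕ} (P : List (ℝ × (ℕ → ℝ))) (q : ℕ) (g : Fin (k + 1) → ℝ) : ℝ :=
  (P.map fun t => t.1 * Real.sin (dot t.2 q g)).sum

instance (k : ℕ) : IsProbabilityMeasure (gk k) := by
  unfold gk
  infer_instance

theorem dot_tr {k q n : ℕ} (h : q ≤ n) (a : ℕ → ℝ) (g : Fin (k + 1) → ℝ) : dot (tr q a) n g = dot a q g := by
  refine Finset.sum_congr rfl fun i _ => ?_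
  simp only [tr]
  split_ifs <;> first | rfl | omega

@[fun_prop] theorem cont_dot {k : ℕ} (a : ℕ → ℝ) (q : ℕ) : Continuous (dot (k := k) a q) := by
  unfold dot
  fun_prop

@[fun_prop] theorem cont_fS {k : ℕ} (P : List (ℝ × (ℕ → ℝ))) (q : ℕ) : Continuous (fS (k := k) P q) :=
  continuous_list_sum _ fun t _ => by fun_prop

theorem abs_fS {k : ℕ} (P : List (ℝ × (ℕ → ℝ))) (q : ℕ) (g : Fin (k + 1) → ℝ) :
    |fS P q g| ≤ (P.map fun t => |t.1|).sum := by
  induction P with
  | nil => simp [fS]
  | cons t P ih =>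
    simp only [fS, List.map_cons, List.sum_cons] at ih ⊢
    refine (abs_add_le _ _).trans (add_le_add ?_ ih)
    rw [abs_mul]
    exact mul_le_of_le_one_right (abs_nonneg _) (Real.abs_sin_le_one _)

theorem mem_bdd {k : ℕ} {f : (Fin (k + 1) → ℝ) → ℝ} (hf : Continuous f) {C : ℝ} (h : ∀ g, |f g| ≤ C) :
    MemLp f 2 (gk k) :=
  MemLp.of_bound hf.aestronglyMeasurable C (ae_of_all _ h)

theorem mem_fS {k : ℕ} (P : List (ℝ × (ℕ → ℝ))) (q : ℕ) : MemLp (fS P q) 2 (gk k) :=
  mem_bdd (cont_fS P q) (abs_fS P q)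

/-- odd trigonometric polynomials in `g_0 … g_q` -/
def TP (k q : ℕ) : Submodule ℝ (Lp ℝ 2 (gk k)) where
  carrier := {x | ∃ P, x =ᵐ[gk k] fS P q}
  zero_mem' := ⟨[], Lp.coeFn_zero _ _ _⟩
  add_mem' := by
    rintro x y ⟨P, hP⟩ ⟨Q, hQ⟩
    refine ⟨P ++ Q, ?_⟩
    filter_upwards [Lp.coeFn_add x y, hP, hQ] with g h1 h2 h3
    rw [h1, Pi.add_apply, h2, h3]
    simp [fS]
  smul_mem' := by
    rintro c x ⟨P, hP⟩
    refine ⟨P.map fun t => (c * t.1, t.2), ?_⟩
    filter_upwards [Lp.coeFn_smul c x, hP] with g h1 h2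
    rw [h1, Pi.smul_apply, h2]
    simp [fS, ← List.sum_map_mul_left, Function.comp_def, mul_assoc]

theorem TP_mono (k : ℕ) : Monotone (TP k) := by
  rintro q n h x ⟨P, hP⟩
  refine ⟨P.map fun t => (t.1, tr q t.2), hP.trans (ae_of_all _ fun g => ?_)⟩
  simp [fS, Function.comp_def, dot_tr h]

section
variable {X V : Type} [MeasurableSpace X] {γ : Measure X} [NormedAddCommGroup V] [NormedSpace ℝ V]
  [MeasurableSpace V] [BorelSpace V]

omit [NormedAddCommGroup V] [NormedSpace ℝ V] [BorelSpace V] in
theorem push {G : Type} [NormedAddCommGroup G] [NormedSpace ℝ G] {w : X → ℝ≥0} (hw : Measurable w) {T : X → V}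
    (hT : Measurable T) {φ : V → G} (hφ : StronglyMeasurable φ) (hi : Integrable (fun x => (w x : ℝ) • φ (T x)) γ) :
    Integrable φ ((γ.withDensity fun x => w x).map T) ∧
      ∫ v, φ v ∂((γ.withDensity fun x => w x).map T) = ∫ x, (w x : ℝ) • φ (T x) ∂γ :=
  ⟨(integrable_map_measure hφ.aestronglyMeasurable hT.aemeasurable).2
      ((integrable_withDensity_iff_integrable_smul hw).2 hi),
    by rw [integral_map hT.aemeasurable hφ.aestronglyMeasurable, integral_withDensity_eq_integral_smul hw]; rfl⟩

omit [NormedAddCommGroup V] [NormedSpace ℝ V] [BorelSpace V] in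
theorem push2 {G : Type} [NormedAddCommGroup G] [NormedSpace ℝ G] {h : X → ℝ} (hm : Measurable h) {S T : X → V}
    (hS : Measurable S) (hT : Measurable T) {φ : V → G} (hφ : StronglyMeasurable φ)
    (h1 : Integrable (fun x => h x • φ (S x)) γ) (h2 : Integrable (fun x => h x • φ (T x)) γ) :
    ∫ v, φ v ∂((γ.withDensity fun x => (h x).toNNReal).map S + (γ.withDensity fun x => (-h x).toNNReal).map T) -
      ∫ v, φ v ∂((γ.withDensity fun x => (-h x).toNNReal).map S + (γ.withDensity fun x => (h x).toNNReal).map T) =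
      ∫ x, h x • φ (S x) ∂γ - ∫ x, h x • φ (T x) ∂γ := by
  have key : ∀ {u : X → ℝ} (_ : Measurable u) (_ : ∀ x, |u x| = |h x|) {R : X → V} (_ : Measurable R)
      (_ : Integrable (fun x => h x • φ (R x)) γ), Integrable (fun x => ((u x).toNNReal : ℝ) • φ (R x)) γ :=
    fun {u} hu e {R} hR hi => hi.mono
      ((hu.real_toNNReal.coe_nnreal_real.stronglyMeasurable.smul (hφ.comp_measurable hR)).aestronglyMeasurable)
      (ae_of_all _ fun x => by
        rw [norm_smul, norm_smul, Real.norm_eq_abs, Real.norm_eq_abs, ← e, NNReal.abs_eq]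
        exact mul_le_mul_of_nonneg_right (Real.coe_toNNReal_le _) (norm_nonneg _))
  have a1 := key hm (fun _ => rfl) hS h1
  have hm' : Measurable fun x => -h x := hm.neg
  have a2 := key hm' (fun _ => abs_neg _) hT h2
  have a3 := key hm' (fun _ => abs_neg _) hS h1
  have a4 := key hm (fun _ => rfl) hT h2
  have b1 := push hm.real_toNNReal hS hφ a1
  have b2 := push hm'.real_toNNReal hT hφ a2
  have b3 := push hm'.real_toNNReal hS hφ a3
  have b4 := push hm.real_toNNReal hT hφ a4
  have e : ∀ {R : X → V}, (fun x => h x • φ (R x)) =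
      fun x => ((h x).toNNReal : ℝ) • φ (R x) - ((-h x).toNNReal : ℝ) • φ (R x) := by
    intro R
    funext x
    rw [← sub_smul, Real.coe_toNNReal', Real.coe_toNNReal', max_zero_sub_max_neg_zero_eq_self]
  rw [integral_add_measure b1.1 b2.1, integral_add_measure b3.1 b4.1, b1.2, b2.2, b3.2, b4.2, e, e,
    integral_sub a1 a3, integral_sub a4 a2]
  abel

theorem uniq [SecondCountableTopology V] [CompleteSpace V] {h : X → ℝ} (hm : Measurable h) (hi : Integrable h γ)
    {S T : X → V} (hS : Measurable S) (hT : Measurable T)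
    (hc : ∀ L : StrongDual ℝ V, ∫ x, h x • cexp (L (S x) * I) ∂γ = ∫ x, h x • cexp (L (T x) * I) ∂γ)
    {φ : V → ℝ} (hφ : Continuous φ) (h1 : Integrable (fun x => h x • φ (S x)) γ)
    (h2 : Integrable (fun x => h x • φ (T x)) γ) : ∫ x, h x • φ (S x) ∂γ = ∫ x, h x • φ (T x) ∂γ := by
  have f1 : IsFiniteMeasure (γ.withDensity fun x => (h x).toNNReal) := isFiniteMeasure_withDensity_ofReal hi.2
  have f2 : IsFiniteMeasure (γ.withDensity fun x => (-h x).toNNReal) := isFiniteMeasure_withDensity_ofReal hi.neg.2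
  have e : (γ.withDensity fun x => (h x).toNNReal).map S + (γ.withDensity fun x => (-h x).toNNReal).map T =
      (γ.withDensity fun x => (-h x).toNNReal).map S + (γ.withDensity fun x => (h x).toNNReal).map T := by
    refine Measure.ext_of_charFunDual (funext fun L => ?_)
    have hb : ∀ {R : X → V} (_ : Measurable R), Integrable (fun x => h x • cexp (L (R x) * I)) γ := fun {R} hR =>
      hi.mono (Measurable.aestronglyMeasurable (by fun_prop)) (ae_of_all _ fun x => by
        rw [norm_smul, norm_exp_ofReal_mul_I, mul_one])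
    rw [charFunDual_apply, charFunDual_apply, ← sub_eq_zero,
      push2 hm hS hT (φ := fun v => cexp (L v * I)) (Continuous.stronglyMeasurable (by fun_prop)) (hb hS) (hb hT),
      hc, sub_self]
  rw [← sub_eq_zero, ← push2 hm hS hT hφ.stronglyMeasurable h1 h2, e, sub_self]

end

theorem dense {k q : ℕ} {m : (Fin (k + 1) → ℝ) → ℝ} (hm : Continuous m)
    (hd : ∀ g g', (∀ i : Fin (k + 1), i.val ≤ q → g i = g' i) → m g = m g') (ho : ∀ g, m (-g) = -m g)
    (hL : MemLp m 2 (gk k)) : hL.toLp m ∈ closure (TP k q : Set (Lp ℝ 2 (gk k))) := by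
  rw [← Submodule.topologicalClosure_coe, ← Submodule.orthogonal_orthogonal_eq_closure, SetLike.mem_coe,
    Submodule.mem_orthogonal]
  intro h hh
  let π : (Fin (k + 1) → ℝ) → Fin (k + 1) → ℝ := fun g i => if i.val ≤ q then g i else 0
  have hπ : Measurable π := measurable_pi_lambda _ fun i => by
    by_cases hi : i.val ≤ q <;> simp only [π, hi, if_true, if_false] <;> fun_prop
  have hmπ : ∀ g, m (π g) = m g := fun g => hd _ _ fun i hi => if_pos hi
  have hi : Integrable h (gk k) := (Lp.memLp h).integrable one_le_two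
  have hhm : Integrable (fun g => h g • m g) (gk k) := (Lp.memLp h).integrable_mul hL
  have hπ' : Measurable fun g => -π g := hπ.neg
  have key := uniq (Lp.stronglyMeasurable h).measurable hi hπ hπ' (φ := m) (fun L => ?_) hm
    (by simpa only [hmπ] using hhm) (by simp only [ho, hmπ, smul_neg]; exact hhm.neg)
  · simp only [ho, hmπ, smul_neg, integral_neg] at key
    rw [L2.inner_def]
    have e : ∫ g, inner ℝ (h g) (hL.toLp m g) ∂gk k = ∫ g, h g • m g ∂gk k := by
      refine integral_congr_ae ?_
      filter_upwards [hL.coeFn_toLp] with g hg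
      simp [hg, mul_comm]
    linarith
  · let a : ℕ → ℝ := fun i => if hi : i < k + 1 then L (Pi.single ⟨i, hi⟩ 1) else 0
    have hLa : ∀ g, L (π g) = dot a q g := fun g => by
      rw [pi_eq_sum_univ' (π g), map_sum]
      refine Finset.sum_congr rfl fun i _ => ?_
      simp only [map_smul, π, tr, a, i.2, dif_pos, smul_eq_mul]
      split_ifs <;> simp [mul_comm]
    have h0 := hh _ (show (mem_fS [(1, a)] q).toLp _ ∈ TP k q from ⟨_, MemLp.coeFn_toLp _⟩)
    rw [L2.inner_def] at h0
    have h1 : ∫ g, h g * Real.sin (dot a q g) ∂gk k = 0 := by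
      rw [← h0]
      refine integral_congr_ae ?_
      filter_upwards [(mem_fS [(1, a)] q).coeFn_toLp] with g hg
      simp [hg, fS]
    have hb : ∀ {u : (Fin (k + 1) → ℝ) → ℝ} (_ : Measurable u), Integrable (fun g => h g • cexp (u g * I)) (gk k) :=
      fun {u} hu => hi.mono ((Lp.aestronglyMeasurable h).smul (Measurable.aestronglyMeasurable (by fun_prop)))
        (ae_of_all _ fun x => by rw [norm_smul, norm_exp_ofReal_mul_I, mul_one])
    simp only [map_neg, hLa]
    rw [← sub_eq_zero, ← integral_sub (hb (by fun_prop)) (hb (by fun_prop))]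
    have e : ∀ g, h g • cexp (dot a q g * I) - h g • cexp ((-dot a q g : ℝ) * I) =
        ((h g * Real.sin (dot a q g) : ℝ) : ℂ) * (2 * I) := fun g => by
      simp only [exp_mul_I, real_smul, ofReal_neg, cos_neg, sin_neg, ofReal_mul, ofReal_sin]
      ring
    simp only [e]
    rw [integral_mul_const, integral_complex_ofReal, h1]
    simp

theorem gs {H : Type} [NormedAddCommGroup H] [InnerProductSpace ℝ H] {A : ℕ → Submodule ℝ H} (hA : Monotone A)
    (m : ℕ → H) (k : ℕ) (ho : ∀ i < k, ∀ j < k, inner ℝ (m i) (m j) = if i = j then 1 else 0)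
    (hc : ∀ q < k, m q ∈ closure (A q : Set H)) :
    ∃ p : ℕ → ℕ → H, (∀ᶠ N in atTop, ∀ i < k, ∀ j < k, inner ℝ (p N i) (p N j) = if i = j then 1 else 0) ∧
      (∀ N, ∀ q < k, p N q ∈ A q) ∧ ∀ q < k, Tendsto (fun N => p N q) atTop (𝓝 (m q)) := by
  induction k with
  | zero => exact ⟨fun _ _ => 0, by simp, by simp, by simp⟩
  | succ k ih =>
    obtain ⟨p, h1, h2, h3⟩ := ih (fun i hi j hj => ho i (by omega) j (by omega)) fun q hq => hc q (by omega)
    obtain ⟨r, hr, hr'⟩ := mem_closure_iff_seq_limit.1 (hc k (by omega))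
    let r' : ℕ → H := fun N => r N - ∑ i ∈ Finset.range k, inner ℝ (p N i) (r N) • p N i
    have t1 : Tendsto r' atTop (𝓝 (m k)) := by
      have := hr'.sub (tendsto_finsetSum (Finset.range k) fun i hi =>
        ((h3 i (Finset.mem_range.1 hi)).inner (𝕜 := ℝ) hr').smul (h3 i (Finset.mem_range.1 hi)))
      rwa [Finset.sum_eq_zero, sub_zero] at this
      intro i hi
      have hi := Finset.mem_range.1 hi
      rw [ho i (by omega) k (by omega), if_neg hi.ne, zero_smul]
    have hn : ‖m k‖ = 1 := by
      have := ho k (by omega) k (by omega)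
      rw [if_pos rfl, real_inner_self_eq_norm_sq] at this
      nlinarith [norm_nonneg (m k)]
    have t2 : Tendsto (fun N => ‖r' N‖) atTop (𝓝 1) := hn ▸ t1.norm
    refine ⟨fun N => Function.update (p N) k (‖r' N‖⁻¹ • r' N), ?_, fun N q hq => ?_, fun q hq => ?_⟩
    · filter_upwards [h1, t2.eventually_ne one_ne_zero] with N hN h0
      have hp : ∀ i < k, inner ℝ (p N i) (r' N) = 0 := fun i hi => by
        simp only [r', inner_sub_right, inner_sum, inner_smul_right]
        rw [Finset.sum_eq_single i (fun j hj hne => by rw [hN i hi j (Finset.mem_range.1 hj), if_neg hne.symm, mul_zero])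
          (fun h => absurd (Finset.mem_range.2 hi) h), hN i hi i hi, if_pos rfl, mul_one, sub_self]
      intro i hi j hj
      rcases Nat.lt_succ_iff_lt_or_eq.1 hi with hi | rfl <;> rcases Nat.lt_succ_iff_lt_or_eq.1 hj with hj | rfl
      · rw [Function.update_of_ne hi.ne, Function.update_of_ne hj.ne, hN i hi j hj]
      · rw [Function.update_of_ne hi.ne, Function.update_self, inner_smul_right, hp i hi, mul_zero, if_neg hi.ne]
      · rw [Function.update_of_ne hj.ne, Function.update_self, real_inner_comm, inner_smul_right, hp j hj, mul_zero,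
          if_neg hj.ne']
      · rw [Function.update_self, if_pos rfl, real_inner_self_eq_norm_sq, norm_smul, norm_inv, norm_norm,
          inv_mul_cancel₀ h0, one_pow]
    · rcases Nat.lt_succ_iff_lt_or_eq.1 hq with hq | rfl
      · simp only [Function.update_of_ne hq.ne]
        exact h2 N q hq
      · simp only [Function.update_self]
        exact (A q).smul_mem _ ((A q).sub_mem (hr N) ((A q).sum_mem fun i hi =>
          (A q).smul_mem _ (hA (Finset.mem_range.1 hi).le (h2 N i (Finset.mem_range.1 hi)))))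
    · rcases Nat.lt_succ_iff_lt_or_eq.1 hq with hq | rfl
      · simpa only [Function.update_of_ne hq.ne] using h3 q hq
      · simpa only [Function.update_self, inv_one, one_smul] using (t2.inv₀ one_ne_zero).smul t1

end Crest.Agent.R339.T
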