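import Crest.Agent.R339.T.Rep
import Crest.Agent.R339.T.Cls

/-!
# R339/T/Main (owner helper98): block `T`.  For orthonormal trigonometric messages the Gram matrix of the signal fields tends to the
identity as `η → 0`, so `topVal` tends to the classical value of the trigonometric data.
-/

set_option autoImplicit false
open MeasureTheory ProbabilityTheory Filter Topology Complex
open scoped ComplexConjugate

namespace Crest.Agent.R339
namespace T

theorem exp_unif {β 𝔸 : Type} [NormedRing 𝔸] [NormedAlgebra ℂ 𝔸] [CompleteSpace 𝔸] (y : β → 𝔸) {C : ℝ}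
    (hy : ∀ x, ‖y x‖ ≤ C) : TendstoUniformly (fun N x => ∑ n ∈ Finset.range N, ((n.factorial : ℂ)⁻¹) • y x ^ n)
      (fun x => NormedSpace.exp (y x)) atTop := by
  rw [NormedSpace.exp_eq_tsum ℂ]
  refine tendstoUniformly_tsum_nat ((Real.summable_pow_div_factorial C).mul_left ‖(1 : 𝔸)‖) fun n x => ?_
  have h : ‖y x ^ n‖ ≤ ‖(1 : 𝔸)‖ * C ^ n := by
    induction n with
    | zero => simp
    | succ n ih =>
      rw [pow_succ, pow_succ, ← mul_assoc]
      exact (norm_mul_le _ _).trans (mul_le_mul ih (hy x) (norm_nonneg _) ((norm_nonneg _).trans ih))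
  rw [norm_smul, norm_inv, Complex.norm_natCast, ← mul_div_assoc, div_eq_inv_mul]
  exact mul_le_mul_of_nonneg_left h (by positivity)

theorem int_lim {k : ℕ} {φ : ℕ → (Fin (k + 1) → ℝ) → ℂ} {ψ u : (Fin (k + 1) → ℝ) → ℂ} (hu : Integrable u (gk k))
    (hc : ∀ N, Continuous (φ N)) (h : TendstoUniformly φ ψ atTop) (hb : ∀ g, ‖ψ g‖ ≤ 1) :
    Tendsto (fun N => ∫ g, u g * φ N g ∂gk k) atTop (𝓝 (∫ g, u g * ψ g ∂gk k)) := by
  refine tendsto_integral_filter_of_dominated_convergence (fun g => ‖u g‖ * 2)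
    (Eventually.of_forall fun N => hu.1.mul (hc N).aestronglyMeasurable) ?_ (hu.norm.mul_const 2)
    (ae_of_all _ fun g => (h.tendsto_at g).const_mul _)
  filter_upwards [Metric.tendstoUniformly_iff.1 h 1 one_pos] with N hN
  refine ae_of_all _ fun g => ?_
  rw [norm_mul]
  refine mul_le_mul_of_nonneg_left ?_ (norm_nonneg _)
  have h1 := hN g
  rw [dist_comm, dist_eq_norm] at h1
  linarith [norm_le_norm_add_norm_sub' (φ N g) (ψ g), hb g]

variable {E K : Type} [NormedAddCommGroup E] [InnerProductSpace ℂ E]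
  [NormedAddCommGroup K] [InnerProductSpace ℂ K] [CompleteSpace K]
  {M : Model E K} {j : Lp K 2 mu0 →ₗᵢ[ℂ] E} {P : ℕ → List (ℝ × (ℕ → ℝ))}

theorem meas_Dt (η : ℝ) : MeasurableSet (Dt η) := measurableSet_Ico

omit [InnerProductSpace ℂ K] [CompleteSpace K] in
theorem mem_ind (η : ℝ) (v : K) : MemLp ((Dt η).indicator fun _ => v) 2 mu0 := (memLp_const v).indicator (meas_Dt η)

theorem inner_zero {η : ℝ} {f : Set ℝ → ℕ → E} (hf : M.IsSig j η P f) (h0 : 0 < η) (v : K) :
    inner ℂ (f ∅ 0) (JJ j ((Dt η).indicator fun _ => v)) = 0 := by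
  rw [(hf ∅).1, inner_smul_left, JJ_orth, mul_zero]
  intro u
  by_cases hu : u ∈ Sd η
  · exact Or.inr (Set.indicator_of_notMem (fun h => by linarith [hu.2, h.1]) _)
  · exact Or.inl (Set.indicator_of_notMem hu _)

theorem sig_succ {η : ℝ} {f : Set ℝ → ℕ → E} (hf : M.IsSig j η P f) (q : ℕ) :
    f ∅ (q + 1) = JJ j ((Dt η).indicator fun _ => M.opS (P q) q (f ∅) M.Ω) := by
  rw [(hf ∅).2, Set.sdiff_empty]

theorem inner_succ {η : ℝ} {f : Set ℝ → ℕ → E} (hf : M.IsSig j η P f) (q : ℕ) (v : K) :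
    inner ℂ (f ∅ (q + 1)) (JJ j ((Dt η).indicator fun _ => v)) =
      (mu0.real (Dt η) : ℂ) * inner ℂ (M.opS (P q) q (f ∅) M.Ω) v := by
  rw [sig_succ hf, JJ_inner_const j (meas_Dt η) (meas_Dt η), Set.inter_self]

theorem EnV_ind (η : ℝ) (v : K) : M.EnV j ((Dt η).indicator fun _ => v) =
    ((mu0.real (Dt η) : ℂ) * conj (inner ℂ (M.ι (JJ j ((Dt η).indicator fun _ => v))) v)).re := by
  rw [Model.EnV, inner_conj_symm]
  generalize M.ι _ = w
  have e : (fun u => inner ℂ ((Dt η).indicator (fun _ => v) u) w) = (Dt η).indicator fun _ => inner ℂ v w := by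
    funext u
    by_cases hu : u ∈ Dt η <;> simp [hu]
  rw [e, integral_indicator_const _ (meas_Dt η), real_smul]

theorem norm_ind (η : ℝ) (v : K) : ‖JJ j ((Dt η).indicator fun _ => v)‖ ≤ ‖v‖ :=
  (norm_JJ_le j (meas_Dt η) (norm_nonneg v) (fun u hu => by rw [Set.indicator_of_mem hu])
    fun u hu => Set.indicator_of_notMem hu _).trans
    (mul_le_of_le_one_right (norm_nonneg _) (Real.sqrt_le_one.2 measureReal_le_one))

theorem EnV_close (η : ℝ) (v w : K) : |M.EnV j ((Dt η).indicator fun _ => v) - M.EnV j ((Dt η).indicator fun _ => w)| ≤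
    (‖v‖ + ‖w‖) * ‖v - w‖ := by
  refine (M.EnV_lip j (mem_ind η v) (mem_ind η w)).trans
    (mul_le_mul (add_le_add (norm_ind η v) (norm_ind η w)) ?_ (norm_nonneg _) (by positivity))
  rw [← JJ_sub j (mem_ind η v) (mem_ind η w)]
  refine le_of_eq_of_le ?_ (norm_ind (j := j) η (v - w))
  congr 2
  funext u
  by_cases hu : u ∈ Dt η <;> simp [hu]

theorem norm_top (ϑ : List (ℝ × (ℕ → ℝ))) (k : ℕ) (f : ℕ → E) : ‖M.topVec ϑ k f‖ ≤ 1 := by
  have hs : star ((2 : ℂ) • M.opS ϑ k f) = (2 : ℂ) • M.opS ϑ k f := by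
    rw [star_smul, M.opS_star]
    simp
  have h1 := unit_norm (eI_mem hs) M.Ω
  have h2 := unit_norm (eI_mem (A := -((2 : ℂ) • M.opS ϑ k f)) (by rw [star_neg, hs])) M.Ω
  rw [Model.topVec, norm_smul]
  have h3 := norm_sub_le (eI (-((2 : ℂ) • M.opS ϑ k f)) M.Ω) (eI ((2 : ℂ) • M.opS ϑ k f) M.Ω)
  rw [h1, h2, M.norm_Ω] at h3
  simp only [norm_div, norm_one, norm_mul, Complex.norm_ofNat, norm_I]
  linarith

section Lim
variable {α : Type} {l : Filter α} {η : α → ℝ} {f : α → Set ℝ → ℕ → E} {k : ℕ}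
  (h0 : ∀ x, 0 < η x) (h1 : ∀ x, η x ≤ 1 / 2) (hf : ∀ x, M.IsSig j (η x) P (f x)) (hl : Tendsto η l (𝓝 0))
  (ho : ∀ i < k, ∀ j < k, ∫ g, fS (P i) i g * fS (P j) j g ∂gk k = if i = j then 1 else 0)

include h0 h1 hl in
theorem tendsto_a : Tendsto (fun x => (mu0.real (Dt (η x)) : ℂ)) l (𝓝 1) := by
  have e : ∀ x, mu0.real (Dt (η x)) = 1 - 2 * η x := fun x =>
    mu0_Ico (by linarith [h0 x]) (by linarith [h1 x]) le_rfl
  simpa only [e, mul_zero, sub_zero, ofReal_one] using ((hl.const_mul 2).const_sub 1).ofReal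

include h0 hf in
theorem him (x : α) (i i' : ℕ) : (inner ℂ (f x ∅ i) (f x ∅ i')).im = 0 :=
  M.sig_im (hf x) (h0 x) MeasurableSet.empty MeasurableSet.empty i i'

include h0 h1 hf hl ho in
theorem gram (n : ℕ) (hn : n ≤ k) : ∀ i ≤ n, ∀ i' ≤ n,
    Tendsto (fun x => inner ℂ (f x ∅ i) (f x ∅ i')) l (𝓝 (if i = i' then 1 else 0)) := by
  have a0 : Tendsto (fun x => inner ℂ (f x ∅ 0) (f x ∅ 0)) l (𝓝 (if 0 = 0 then 1 else 0)) := by
    refine tendsto_const_nhds.congr fun x => ?_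
    rw [inner_self_eq_norm_sq_to_K, M.norm_sig_zero (hf x) (h0 x) (by linarith [h1 x])]
    simp
  have a1 : ∀ x q, inner ℂ (f x ∅ 0) (f x ∅ (q + 1)) = 0 := fun x q => by
    rw [sig_succ (hf x), inner_zero (hf x) (h0 x)]
  induction n with
  | zero =>
    intro i hi i' hi'
    obtain rfl := Nat.le_zero.1 hi
    obtain rfl := Nat.le_zero.1 hi'
    exact a0
  | succ n ih =>
    rintro (_ | i) hi (_ | i') hi'
    · exact a0
    · exact tendsto_const_nhds.congr fun x => (a1 x i').symm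
    · exact tendsto_const_nhds.congr fun x => (inner_eq_zero_symm.1 (a1 x i)).symm
    · have t := (tendsto_a h0 h1 hl).mul ((Rep.opS (M := M) (F := fun x => f x ∅) (k := k) (n := n) (P i)
        (Nat.le_of_succ_le_succ hi)).inn (Rep.opS (P i') (Nat.le_of_succ_le_succ hi')) (him h0 hf) (by omega)
        (ih (by omega)))
      simp only [conj_ofReal, ← ofReal_mul, integral_complex_ofReal, ho i (by omega) i' (by omega), one_mul] at t
      convert t using 2
      · rw [sig_succ (hf _) i', inner_succ (hf _)]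
      · simp only [Nat.add_right_cancel_iff]
        split_ifs <;> simp

include h0 h1 hf hl ho in
theorem lim_rep {A : α → K →L[ℂ] K} {φ : (Fin (k + 1) → ℝ) → ℂ} (h : Rep M (fun x => f x ∅) k k A φ) :
    Tendsto (fun x => M.EnV j ((Dt (η x)).indicator fun _ => A x M.Ω)) l
      (𝓝 (∑ q : Fin k, (∫ g, fS (P q) q g * φ g ∂gk k) * conj (∫ g, g q.succ * φ g ∂gk k)).re) := by
  have hG := gram h0 h1 hf hl ho k le_rfl
  obtain ⟨c, c1, c2⟩ := h.iota hG
  have ta := tendsto_a h0 h1 hl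
  have t := ta.mul (tendsto_finsetSum Finset.univ fun (q : Fin k) _ =>
    (ta.mul ((Rep.opS (P q) q.2.le).inn h (him h0 hf) le_rfl hG)).mul ((continuous_conj.tendsto _).comp (c2 q.succ)))
  simp only [one_mul, conj_ofReal] at t
  refine ((continuous_re.tendsto _).comp t).congr fun x => ?_
  rw [EnV_ind, c1, map_sum, Fin.sum_univ_succ]
  simp only [map_mul, inner_conj_symm, Fin.val_zero, inner_zero (hf x) (h0 x), zero_mul, zero_add, Fin.val_succ,
    inner_succ (hf x), Function.comp]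

include h0 h1 hf hl ho in
theorem lim_top (ϑ : List (ℝ × (ℕ → ℝ))) : Tendsto (fun x => M.topVal j (η x) ϑ k (f x ∅)) l
    (𝓝 (clsVal k (fun q => fS (P q) q) fun g => Real.sin (2 * fS ϑ k g))) := by
  have r0 := (Rep.opS (M := M) (F := fun x => f x ∅) (k := k) ϑ (le_refl k)).smul 2
  have r1 := (r0.smul (-1)).smul (-I)
  have r2 := r0.smul (-I)
  have rN := fun N => ((Rep.sum N fun n => (r1.pow (him h0 hf) n).smul (n.factorial : ℂ)⁻¹).add
    ((Rep.sum N fun n => (r2.pow (him h0 hf) n).smul (n.factorial : ℂ)⁻¹).smul (-1))).smul (1 / (2 * I))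
  have b0 : ∀ x, ‖(2 : ℂ) • M.opS ϑ k (f x ∅)‖ ≤ 2 * l1 ϑ := fun x => by
    rw [norm_smul, Complex.norm_ofNat]
    linarith [M.norm_opS ϑ k (f x ∅)]
  have u1 := (((1 / (2 * I) : ℂ) • ContinuousLinearMap.apply ℂ K M.Ω).uniformContinuous).comp_tendstoUniformly
    ((exp_unif (fun x => (-I) • (-1 : ℂ) • (2 : ℂ) • M.opS ϑ k (f x ∅)) (C := 2 * l1 ϑ) fun x => by
      simpa [norm_smul] using b0 x).sub
    (exp_unif (fun x => (-I) • (2 : ℂ) • M.opS ϑ k (f x ∅)) (C := 2 * l1 ϑ) fun x => by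
      simpa [norm_smul] using b0 x))
  have b1 : ∀ g : Fin (k + 1) → ℝ, ‖(2 : ℂ) * fS ϑ k g‖ ≤ 2 * l1 ϑ := fun g => by
    rw [norm_mul, Complex.norm_ofNat, norm_real, Real.norm_eq_abs]
    linarith [abs_fS ϑ k g, show l1 ϑ = (ϑ.map fun t => |t.1|).sum from rfl]
  have u2 := (((1 / (2 * I) : ℂ) • ContinuousLinearMap.id ℂ ℂ).uniformContinuous).comp_tendstoUniformly
    ((exp_unif (fun g : Fin (k + 1) → ℝ => -I * (-1 * (2 * (fS ϑ k g : ℂ)))) (C := 2 * l1 ϑ) fun g => by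
      simpa using b1 g).sub
    (exp_unif (fun g : Fin (k + 1) → ℝ => -I * (2 * (fS ϑ k g : ℂ))) (C := 2 * l1 ϑ) fun g => by
      simpa using b1 g))
  obtain ⟨A, φ, hr, hA, hφ⟩ : ∃ (A : ℕ → α → K →L[ℂ] K) (φ : ℕ → (Fin (k + 1) → ℝ) → ℂ),
      (∀ N, Rep M (fun x => f x ∅) k k (A N) (φ N)) ∧
      TendstoUniformly (fun N x => A N x M.Ω) (fun x => M.topVec ϑ k (f x ∅)) atTop ∧
      TendstoUniformly φ (fun g => (Real.sin (2 * fS ϑ k g) : ℂ)) atTop := by
    refine ⟨_, _, rN, ?_, ?_⟩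
    · convert u1 using 2
      · funext x
        simp [sub_eq_add_neg, add_comm]
      · simp [Model.topVec, eI]
    · convert u2 using 2
      · funext g
        simp [sub_eq_add_neg]
      · simp only [Function.comp, Pi.sub_apply, ← Complex.exp_eq_exp_ℂ, smul_apply, ContinuousLinearMap.id_apply,
          smul_eq_mul, ofReal_sin, ofReal_mul, ofReal_ofNat, Complex.sin]
        ring_nf
        rw [inv_I]
        ring
  have hb : ∀ g : Fin (k + 1) → ℝ, ‖(Real.sin (2 * fS ϑ k g) : ℂ)‖ ≤ 1 := fun g => by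
    rw [norm_real]
    exact Real.abs_sin_le_one _
  have t := (continuous_re.tendsto _).comp (tendsto_finsetSum Finset.univ fun (q : Fin k) _ =>
    (int_lim (((mem_fS (P q) q).integrable one_le_two).ofReal (𝕜 := ℂ)) (fun N => (hr N).cont) hφ hb).mul
      ((continuous_conj.tendsto _).comp (int_lim (int_coord q.succ) (fun N => (hr N).cont) hφ hb)))
  refine TendstoUniformly.tendsto_of_eventually_tendsto
    (F := fun N x => M.EnV j ((Dt (η x)).indicator fun _ => A N x M.Ω)) (p := atTop) ?_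
    (Eventually.of_forall fun N => lim_rep h0 h1 hf hl ho (hr N)) ?_
  · refine Metric.tendstoUniformly_iff.2 fun ε hε => ?_
    filter_upwards [Metric.tendstoUniformly_iff.1 hA (min 1 (ε / 4)) (by positivity)] with N hN x
    have e1 := hN x
    rw [dist_eq_norm, lt_min_iff] at e1
    have e2 := norm_top (M := M) ϑ k (f x ∅)
    have e3 := norm_le_norm_add_norm_sub (M.topVec ϑ k (f x ∅)) (A N x M.Ω)
    refine (EnV_close (η x) _ _).trans_lt ?_
    nlinarith [norm_nonneg (M.topVec ϑ k (f x ∅) - A N x M.Ω)]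
  · refine t.trans (le_of_eq (congrArg _ ?_))
    simp only [coe_algebraMap, ← ofReal_mul, integral_complex_ofReal, conj_ofReal, ← ofReal_sum, ofReal_re, clsVal,
      mul_comm (Real.sin _)]

end Lim
end T

variable {E K : Type} [NormedAddCommGroup E] [InnerProductSpace ℂ E]
  [NormedAddCommGroup K] [InnerProductSpace ℂ K] [CompleteSpace K]

theorem trig (M : Model E K) (j : Lp K 2 mu0 →ₗᵢ[ℂ] E) : S_T M j := by
  intro k m s h ε hε
  obtain ⟨P, ϑ, ho, hv⟩ := T.cls_approx h hε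
  have t := T.lim_top (M := M) (j := j) (P := P)
    (α := {x : ℝ × (Set ℝ → ℕ → E) // 0 < x.1 ∧ x.1 ≤ 1 / 2 ∧ M.IsSig j x.1 P x.2})
    (l := comap (fun x => x.1.1) (𝓝 0)) (η := fun x => x.1.1) (f := fun x => x.1.2)
    (fun x => x.2.1) (fun x => x.2.2.1) (fun x => x.2.2.2) tendsto_comap ho ϑ
  obtain ⟨δ, hδ, hb⟩ := Metric.eventually_nhds_iff.1 (eventually_comap.1 (t.eventually (lt_mem_nhds hv)))
  refine ⟨P, ϑ, min (δ / 2) (1 / 2), by positivity, fun η h0 h1 f hf => ?_⟩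
  refine (hb (y := η) ?_ ⟨(η, f), h0, h1.trans (min_le_right _ _), hf⟩ rfl).le
  rw [Real.dist_eq, sub_zero, abs_of_pos h0]
  linarith [h1.trans (min_le_left _ _)]

end Crest.Agent.R339
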