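import Crest.Agent.R339.T.Den
import Crest.Agent.R339.ApiL

/-!
# R339/T/Rep (owner helper98): trigonometric polynomials of commuting fields whose Gram matrix tends to the identity.
`Rep A φ`: the family of operators `A x` is the trigonometric polynomial `φ` of the fields `F x 0, …, F x n`.
-/

set_option autoImplicit false
open MeasureTheory ProbabilityTheory Filter Topology Complex
open scoped ComplexConjugate

namespace Crest.Agent.R339.T

theorem gauss_one (z : ℂ) : ∫ x : ℝ, cexp (z * x) ∂gaussianReal 0 1 = cexp (z ^ 2 / 2) ∧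
    ∫ x : ℝ, x * cexp (z * x) ∂gaussianReal 0 1 = z * cexp (z ^ 2 / 2) := by
  have h0 : complexMGF id (gaussianReal 0 1) = fun z => cexp (z ^ 2 / 2) := funext fun z => by
    rw [complexMGF_id_gaussianReal]
    simp
  refine ⟨congrFun h0 z, ?_⟩
  have h1 := hasDerivAt_complexMGF (X := id) (μ := gaussianReal 0 1) (z := z) (by simp)
  rw [h0] at h1
  refine (h1.unique (((hasDerivAt_pow 2 z).div_const 2).cexp)).trans ?_
  simp only [Nat.cast_ofNat, Nat.add_one_sub_one, pow_one]
  ring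

theorem exp_dot {k : ℕ} (a : ℕ → ℝ) (n : ℕ) (g : Fin (k + 1) → ℝ) :
    cexp (-(I * dot a n g)) = ∏ i : Fin (k + 1), cexp (-(I * tr n a i) * g i) := by
  rw [← Complex.exp_sum, dot]
  congr 1
  push_cast
  rw [Finset.mul_sum, ← Finset.sum_neg_distrib]
  exact Finset.sum_congr rfl fun i _ => by ring

theorem exp_sq {k : ℕ} (b : Fin (k + 1) → ℝ) :
    ∏ i, cexp ((-(I * b i)) ^ 2 / 2) = cexp (-((∑ i, (b i : ℂ) ^ 2) / 2)) := by
  rw [← Complex.exp_sum, Finset.sum_div, ← Finset.sum_neg_distrib]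
  congr 1
  exact Finset.sum_congr rfl fun i _ => by rw [neg_sq, mul_pow, I_sq]; ring

theorem gauss0 {k : ℕ} (a : ℕ → ℝ) (n : ℕ) :
    ∫ g, cexp (-(I * dot a n g)) ∂gk k = cexp (-((∑ i : Fin (k + 1), (tr n a i : ℂ) ^ 2) / 2)) := by
  simp only [exp_dot]
  rw [gk, integral_fintype_prod_eq_prod (fun (i : Fin (k + 1)) (x : ℝ) => cexp (-(I * tr n a i) * x))]
  simp only [(gauss_one _).1]
  exact exp_sq fun i => tr n a i

theorem gauss1 {k : ℕ} (a : ℕ → ℝ) (n : ℕ) (j : Fin (k + 1)) :
    ∫ g, g j * cexp (-(I * dot a n g)) ∂gk k =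
      -I * tr n a j * cexp (-((∑ i : Fin (k + 1), (tr n a i : ℂ) ^ 2) / 2)) := by
  have e : ∀ g : Fin (k + 1) → ℝ, g j * cexp (-(I * dot a n g)) =
      ∏ i : Fin (k + 1), (if i = j then (g i : ℂ) else 1) * cexp (-(I * tr n a i) * g i) := fun g => by
    rw [Finset.prod_mul_distrib, exp_dot]
    simp
  have e' : ∀ i : Fin (k + 1), ∫ x : ℝ, (if i = j then (x : ℂ) else 1) * cexp (-(I * tr n a i) * x) ∂gaussianReal 0 1 =
      (if i = j then -(I * tr n a i) else 1) * cexp ((-(I * tr n a i)) ^ 2 / 2) := fun i => by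
    split_ifs
    · exact (gauss_one _).2
    · simp only [one_mul, (gauss_one _).1]
  simp only [e]
  rw [gk, integral_fintype_prod_eq_prod (fun (i : Fin (k + 1)) (x : ℝ) =>
    (if i = j then (x : ℂ) else 1) * cexp (-(I * tr n a i) * x))]
  simp only [e']
  rw [Finset.prod_mul_distrib, exp_sq fun i => tr n a i]
  simp

variable {E K : Type} [NormedAddCommGroup E] [InnerProductSpace ℂ E]
  [NormedAddCommGroup K] [InnerProductSpace ℂ K] [CompleteSpace K]

/-- `∑_{i ≤ n} a_i f_i` -/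
noncomputable def dir (a : ℕ → ℝ) (n : ℕ) (f : ℕ → E) : E := ∑ i ∈ Finset.range (n + 1), ((a i : ℝ) : ℂ) • f i

theorem sum_tr {A : Type} [AddCommMonoid A] {q n : ℕ} (h : q ≤ n) (a : ℕ → ℝ) (u : ℕ → ℝ → A) (hu : ∀ i, u i 0 = 0) :
    ∑ i ∈ Finset.range (n + 1), u i (tr q a i) = ∑ i ∈ Finset.range (q + 1), u i (a i) := by
  rw [← Finset.sum_subset (Finset.range_mono (Nat.succ_le_succ h)) fun i _ hi => by
    rw [tr, if_neg (by simpa [Nat.lt_succ_iff] using hi), hu]]
  exact Finset.sum_congr rfl fun i hi => by rw [tr, if_pos (by simpa [Nat.lt_succ_iff] using hi)]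

theorem dir_tr {q n : ℕ} (h : q ≤ n) (a : ℕ → ℝ) (f : ℕ → E) : dir (tr q a) n f = dir a q f :=
  sum_tr h a (fun i t => ((t : ℝ) : ℂ) • f i) (by simp)

theorem dir_neg (a : ℕ → ℝ) (n : ℕ) (f : ℕ → E) : dir (-a) n f = -dir a n f := by simp [dir]

theorem dir_add (a b : ℕ → ℝ) (n : ℕ) (f : ℕ → E) : dir (a + b) n f = dir a n f + dir b n f := by
  simp [dir, add_smul, Finset.sum_add_distrib]

theorem dot_neg {k : ℕ} (a : ℕ → ℝ) (n : ℕ) (g : Fin (k + 1) → ℝ) : dot (-a) n g = -dot a n g := by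
  rw [dot, dot, ← Finset.sum_neg_distrib]
  refine Finset.sum_congr rfl fun i _ => ?_
  simp only [tr]
  split_ifs <;> simp

theorem dot_add {k : ℕ} (a b : ℕ → ℝ) (n : ℕ) (g : Fin (k + 1) → ℝ) : dot (a + b) n g = dot a n g + dot b n g := by
  rw [dot, dot, dot, ← Finset.sum_add_distrib]
  refine Finset.sum_congr rfl fun i _ => ?_
  simp only [tr]
  split_ifs <;> simp [add_mul]

theorem inner_dir (a b : ℕ → ℝ) (n : ℕ) (f : ℕ → E) : inner ℂ (dir a n f) (dir b n f) =
    ∑ i ∈ Finset.range (n + 1), ∑ j ∈ Finset.range (n + 1), ((a i * b j : ℝ) : ℂ) * inner ℂ (f i) (f j) := by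
  simp only [dir, sum_inner, inner_sum, inner_smul_left, inner_smul_right, conj_ofReal, Finset.mul_sum, ofReal_mul]
  rw [Finset.sum_comm]
  exact Finset.sum_congr rfl fun i _ => Finset.sum_congr rfl fun j _ => by ring

inductive Rep (M : Model E K) {α : Type} (F : α → ℕ → E) (k n : ℕ) :
    (α → K →L[ℂ] K) → ((Fin (k + 1) → ℝ) → ℂ) → Prop
  | W (a : ℕ → ℝ) : Rep M F k n (fun x => M.W (dir a n (F x))) fun g => cexp (-(I * dot a n g))
  | zero : Rep M F k n (fun _ => 0) fun _ => 0
  | add {A B φ ψ} : Rep M F k n A φ → Rep M F k n B ψ → Rep M F k n (fun x => A x + B x) fun g => φ g + ψ g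
  | smul (c : ℂ) {A φ} : Rep M F k n A φ → Rep M F k n (fun x => c • A x) fun g => c * φ g

variable {M : Model E K} {α : Type} {F : α → ℕ → E} {k n : ℕ} {A B : α → K →L[ℂ] K}
  {φ ψ : (Fin (k + 1) → ℝ) → ℂ} {l : Filter α}

namespace Rep

theorem of_eq (h : Rep M F k n A φ) (h1 : ∀ x, A x = B x) (h2 : ∀ g, φ g = ψ g) : Rep M F k n B ψ :=
  funext h1 ▸ funext h2 ▸ h

theorem cont (h : Rep M F k n A φ) : Continuous φ := by
  induction h <;> fun_prop

theorem bdd (h : Rep M F k n A φ) : ∃ C, ∀ g, ‖φ g‖ ≤ C := by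
  induction h with
  | W a => exact ⟨1, fun g => by simp [norm_exp]⟩
  | zero => exact ⟨0, by simp⟩
  | add _ _ h1 h2 =>
    obtain ⟨C, hC⟩ := h1
    obtain ⟨D, hD⟩ := h2
    exact ⟨C + D, fun g => (norm_add_le _ _).trans (add_le_add (hC g) (hD g))⟩
  | smul c _ h1 =>
    obtain ⟨C, hC⟩ := h1
    exact ⟨‖c‖ * C, fun g => (norm_mul_le _ _).trans (mul_le_mul_of_nonneg_left (hC g) (norm_nonneg _))⟩

theorem int (h : Rep M F k n A φ) {u : (Fin (k + 1) → ℝ) → ℂ} (hu : Integrable u (gk k)) :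
    Integrable (fun g => u g * φ g) (gk k) := by
  obtain ⟨C, hC⟩ := h.bdd
  exact hu.mul_bdd h.cont.aestronglyMeasurable (ae_of_all _ hC)

theorem star (h : Rep M F k n A φ) : Rep M F k n (fun x => star (A x)) fun g => conj (φ g) := by
  induction h with
  | W a =>
    exact (W (-a)).of_eq (fun x => by rw [M.W_star, dir_neg]) fun g => by
      rw [← exp_conj, dot_neg]
      simp
  | zero => simpa using zero
  | add _ _ h1 h2 => simpa using h1.add h2
  | smul c _ h1 => simpa using h1.smul (conj c)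

theorem mul (him : ∀ x i j, (inner ℂ (F x i) (F x j)).im = 0) (h : Rep M F k n A φ) (h' : Rep M F k n B ψ) :
    Rep M F k n (fun x => A x * B x) fun g => φ g * ψ g := by
  induction h with
  | W a =>
    induction h' with
    | W b =>
      refine (W (a + b)).of_eq (fun x => ?_) fun g => ?_
      · rw [dir_add, M.W_add_of_im]
        simp [inner_dir, him]
      · rw [← Complex.exp_add, dot_add]
        congr 1
        push_cast
        ring
    | zero => simpa using zero
    | add _ _ h1 h2 => simpa only [mul_add] using h1.add h2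
    | smul c _ h1 => exact (h1.smul c).of_eq (fun x => by simp) fun g => by ring
  | zero => simpa using zero
  | add _ _ h1 h2 => simpa only [add_mul] using h1.add h2
  | smul c _ h1 => exact (h1.smul c).of_eq (fun x => by simp) fun g => by ring

theorem pow (him : ∀ x i j, (inner ℂ (F x i) (F x j)).im = 0) (h : Rep M F k n A φ) (m : ℕ) :
    Rep M F k n (fun x => A x ^ m) fun g => φ g ^ m := by
  induction m with
  | zero => exact (W 0).of_eq (fun x => by simp [dir, M.W_zero]) fun g => by simp [dot, tr]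
  | succ m ih => simpa only [pow_succ] using ih.mul him h

theorem sum (N : ℕ) {A : ℕ → α → K →L[ℂ] K} {φ : ℕ → (Fin (k + 1) → ℝ) → ℂ} (h : ∀ m, Rep M F k n (A m) (φ m)) :
    Rep M F k n (fun x => ∑ m ∈ Finset.range N, A m x) fun g => ∑ m ∈ Finset.range N, φ m g := by
  induction N with
  | zero => simpa using zero
  | succ N ih => simpa only [Finset.sum_range_succ] using ih.add (h N)

theorem opS (P : List (ℝ × (ℕ → ℝ))) {q : ℕ} (hq : q ≤ n) :
    Rep M F k n (fun x => M.opS P q (F x)) fun g => fS P q g := by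
  induction P with
  | nil => simpa [Model.opS, fS] using zero
  | cons t P ih =>
    refine (((((W (-tr q t.2)).add ((W (tr q t.2)).smul (-1))).smul (1 / (2 * I))).smul t.1).add ih).of_eq
      (fun x => ?_) fun g => ?_
    · simp only [Model.opS, List.map_cons, List.sum_cons, Model.sinW, dir_neg, dir_tr hq, neg_one_smul, sub_eq_add_neg]
      rfl
    · simp only [fS, List.map_cons, List.sum_cons, dot_neg, dot_tr hq, ofReal_add, ofReal_mul, ofReal_sin, ofReal_neg]
      congr 2
      rw [Complex.sin, mul_neg, neg_neg, mul_comm I, ← neg_mul]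
      field_simp
      rw [I_sq]
      ring

end Rep

theorem tendsto_dir (hn : n ≤ k)
    (hG : ∀ i ≤ n, ∀ j ≤ n, Tendsto (fun x => inner ℂ (F x i) (F x j)) l (𝓝 (if i = j then 1 else 0))) (a : ℕ → ℝ) :
    Tendsto (fun x => cexp (-((‖dir a n (F x)‖ : ℂ) ^ 2 / 2))) l
      (𝓝 (cexp (-((∑ i : Fin (k + 1), (tr n a i : ℂ) ^ 2) / 2)))) := by
  refine (Tendsto.div_const ?_ 2).neg.cexp
  have h := tendsto_finsetSum (Finset.range (n + 1)) fun i hi => tendsto_finsetSum (Finset.range (n + 1)) fun j hj =>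
    (hG i (Nat.lt_succ_iff.1 (Finset.mem_range.1 hi)) j (Nat.lt_succ_iff.1 (Finset.mem_range.1 hj))).const_mul
      ((a i * a j : ℝ) : ℂ)
  rw [Fin.sum_univ_eq_sum_range (fun i => (tr n a i : ℂ) ^ 2), sum_tr hn a (fun _ t => (t : ℂ) ^ 2) (by simp)]
  convert h using 2
  · rw [← inner_dir, inner_self_eq_norm_sq_to_K]
    rfl
  · refine Finset.sum_congr rfl fun i hi => ?_
    simp [Finset.mem_range.1 hi, sq]

theorem Rep.vac (h : Rep M F k n A φ) (hn : n ≤ k)
    (hG : ∀ i ≤ n, ∀ j ≤ n, Tendsto (fun x => inner ℂ (F x i) (F x j)) l (𝓝 (if i = j then 1 else 0))) :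
    Tendsto (fun x => inner ℂ M.Ω (A x M.Ω)) l (𝓝 (∫ g, φ g ∂gk k)) := by
  induction h with
  | W a => simpa only [M.vac, gauss0] using tendsto_dir hn hG a
  | zero => simpa using tendsto_const_nhds
  | add h1 h2 t1 t2 =>
    rw [integral_add (by simpa using h1.int (integrable_const 1)) (by simpa using h2.int (integrable_const 1))]
    simpa only [add_apply, inner_add_right] using t1.add t2
  | smul c _ t1 =>
    rw [integral_const_mul]
    simpa only [smul_apply, inner_smul_right] using t1.const_mul c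

theorem Rep.inn (h : Rep M F k n A φ) (h' : Rep M F k n B ψ) (him : ∀ x i j, (inner ℂ (F x i) (F x j)).im = 0)
    (hn : n ≤ k) (hG : ∀ i ≤ n, ∀ j ≤ n, Tendsto (fun x => inner ℂ (F x i) (F x j)) l (𝓝 (if i = j then 1 else 0))) :
    Tendsto (fun x => inner ℂ (A x M.Ω) (B x M.Ω)) l (𝓝 (∫ g, conj (φ g) * ψ g ∂gk k)) := by
  simpa only [mul_apply_eq_comp, inner_star_right] using (h.star.mul him h').vac hn hG

theorem int_coord (i : Fin (k + 1)) : Integrable (fun g : Fin (k + 1) → ℝ => (g i : ℂ)) (gk k) :=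
  (((memLp_id_gaussianReal' 1 (by simp)).comp_measurePreserving
    (measurePreserving_eval (fun _ => gaussianReal 0 1) i)).integrable le_rfl).ofReal

theorem Rep.iota (h : Rep M F k k A φ)
    (hG : ∀ i ≤ k, ∀ j ≤ k, Tendsto (fun x => inner ℂ (F x i) (F x j)) l (𝓝 (if i = j then 1 else 0))) :
    ∃ c : α → Fin (k + 1) → ℂ, (∀ x d, inner ℂ (M.ι d) (A x M.Ω) = ∑ i : Fin (k + 1), inner ℂ d (F x i) * c x i) ∧
      ∀ i, Tendsto (fun x => c x i) l (𝓝 (∫ g, g i * φ g ∂gk k)) := by
  induction h with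
  | W a =>
    refine ⟨fun x i => -I * tr k a i * cexp (-((‖dir a k (F x)‖ : ℂ) ^ 2 / 2)), fun x d => ?_, fun i => ?_⟩
    · beta_reduce
      rw [M.ι_W]
      generalize cexp _ = z
      rw [dir, Finset.sum_range, inner_sum, Finset.mul_sum, Finset.sum_mul]
      refine Finset.sum_congr rfl fun i _ => ?_
      rw [inner_smul_right, tr, if_pos (Nat.lt_succ_iff.1 i.2)]
      ring
    · rw [gauss1]
      exact (tendsto_dir le_rfl hG a).const_mul _
  | zero => exact ⟨fun _ _ => 0, by simp, fun _ => by simpa using tendsto_const_nhds⟩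
  | add h1 h2 t1 t2 =>
    obtain ⟨c, a1, a2⟩ := t1
    obtain ⟨c', b1, b2⟩ := t2
    refine ⟨fun x i => c x i + c' x i, fun x d => ?_, fun i => ?_⟩
    · simp only [add_apply, inner_add_right, a1, b1, mul_add, Finset.sum_add_distrib]
    · simp only [mul_add]
      rw [integral_add (h1.int (int_coord i)) (h2.int (int_coord i))]
      exact (a2 i).add (b2 i)
  | smul z _ t1 =>
    obtain ⟨c, a1, a2⟩ := t1
    refine ⟨fun x i => z * c x i, fun x d => ?_, fun i => ?_⟩
    · simp only [smul_apply, inner_smul_right, a1, Finset.mul_sum, mul_left_comm z]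
    · simp only [mul_left_comm _ z]
      rw [integral_const_mul]
      exact (a2 i).const_mul z

end Crest.Agent.R339.T
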